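import Vale.Agent.Lib.P154.SP.Chart
import Vale.Agent.Lib.P154.SN.Final
import Vale.Agent.Lib.P154.PS.Step
import Vale.Agent.Lib.P154.PS.TaylorB

/-!
Nonreconstruction on the Galton-Watson tree with Poisson offspring, negative eigenvalues.
-/

namespace Vale.Agent.Lib.P154

namespace SP

open ST SN PS Filter Topology

lemma nPu_eq (v ρ : ℝ) : nPu v ρ 0 0 = PuF v := by
  simp only [nPu, PuF, rv, zv]
  norm_num

lemma nPl_eq (v ρ : ℝ) : nPl v ρ 0 0 = PlF (ρ * v) := by
  simp only [nPl, nyy, PlF, rv, zv]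
  norm_num

theorem coneKP {v ρ : ℝ} (h0 : 0 ≤ v) (h1 : v ≤ 225 / 128) (h2 : 1743 / 2048 ≤ ρ) (h3 : ρ ≤ 229 / 256) :
    0 ≤ CHv * ((61 - (273375 / 4096) * ρ) * (61 - (273375 / 4096) * ρ))
      - (1 + (51 / 128) * (v * (61 - (273375 / 4096) * ρ)))
        * (61 * PuF v - (1215 / 16) * ((ρ * ρ) * PlF (ρ * v))) := by
  have hb : InBox rootKCP v ρ 0 0 := by
    unfold rootKCP
    refine ⟨?_, ?_, ?_, ?_⟩ <;> rw [abs_le] <;> unfold rv zv <;> norm_num <;> constructor <;> linarith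
  have g := goodKCP v ρ 0 0 hb (by
    intro j
    rw [nthEx_nil]
    unfold Ex.evR rv zv
    norm_num)
  rw [evR_KCP] at g
  unfold RKCP nw nr2 at g
  rw [nPu_eq, nPl_eq] at g
  have e1 : rv 281475034122496 = CHv := by unfold rv zv CHv; norm_num
  have e2 : rv 281475083665408 = 51 / 128 := by unfold rv zv; norm_num
  have e3 : rv 281492892614656 = 273375 / 4096 := by unfold rv zv; norm_num
  have e4 : rv 281491351273472 = 61 := by unfold rv zv; norm_num
  have e5 : rv 281495361028096 = 1215 / 16 := by unfold rv zv; norm_num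
  rw [e1, e2, e3, e4, e5, rv_one] at g
  exact g

/-- Comparison of the second order remainder of the exponentials with the rational majorant. -/
lemma cone_P {d x y : ℝ} (hd : 0 ≤ d) (h1 : (2117745 / 32768) * x ≤ y) (h2 : y ≤ (278235 / 4096) * x) (h3 : 0 ≤ x)
    (h4 : d * x ≤ 225 / 128) :
    61 * (Real.exp (-(d * x)) - 1 + d * x)
        - (1215 / 16) * (Real.exp (-(d * (y / (1215 / 16)))) - 1 + d * (y / (1215 / 16)))
      ≤ Fq (CHv * d ^ 2) ((51 / 128) * d) (61 * x - (225 / 256) * y) := by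
  rcases h3.eq_or_lt with e | hx
  · subst e
    have hy : y = 0 := by linarith
    subst hy
    simp [Fq]
  · set ρ := (y * (16 / 1215)) / x with hρ
    have hy : y * (16 / 1215) = ρ * x := by
      rw [hρ]; field_simp
    have hρ1 : 1743 / 2048 ≤ ρ := by
      rw [hρ, le_div_iff₀ hx]; linarith
    have hρ2 : ρ ≤ 229 / 256 := by
      rw [hρ, div_le_iff₀ hx]; linarith
    have eW : 61 * x - (225 / 256) * y = x * (61 - (273375 / 4096) * ρ) := by
      have : y = (1215 / 16) * (ρ * x) := by rw [← hy]; ring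
      rw [this]; ring
    have hw0 : 0 ≤ 61 - (273375 / 4096) * ρ := by linarith
    set w := 61 - (273375 / 4096) * ρ with hw
    set v := d * x with hv
    have hv0 : 0 ≤ v := mul_nonneg hd hx.le
    have ez : d * (y / (1215 / 16)) = ρ * v := by
      have : y / (1215 / 16) = ρ * x := by rw [← hy]; ring
      rw [this, hv]; ring
    rw [eW, ez]
    have hρ0 : 0 ≤ ρ := by linarith
    have hF : Fq (CHv * d ^ 2) ((51 / 128) * d) (x * w) = Fq CHv (51 / 128) (v * w) := by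
      unfold Fq
      rw [hv]
      have e1 : CHv * d ^ 2 * (x * w) ^ 2 = CHv * (d * x * w) ^ 2 := by ring
      have e2 : 51 / 128 * d * (x * w) = 51 / 128 * (d * x * w) := by ring
      rw [e1, e2]
    rw [hF]
    have hvw : 0 ≤ v * w := mul_nonneg hv0 hw0
    have hp : 0 < 1 + (51 / 128) * (v * w) := by positivity
    unfold Fq
    rw [le_div_iff₀ hp]
    have g := coneKP hv0 h4 hρ1 hρ2
    rw [← hw] at g
    have u1 := R1_upper hv0
    have u2 := R1_lower (mul_nonneg hρ0 hv0)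
    have a1 : 61 * (Real.exp (-v) - 1 + v) - (1215 / 16) * (Real.exp (-(ρ * v)) - 1 + ρ * v)
        ≤ v ^ 2 * (61 * PuF v - (1215 / 16) * ((ρ * ρ) * PlF (ρ * v))) := by
      have e : v ^ 2 * (61 * PuF v - (1215 / 16) * ((ρ * ρ) * PlF (ρ * v)))
          = 61 * (v ^ 2 * PuF v) - (1215 / 16) * ((ρ * v) ^ 2 * PlF (ρ * v)) := by ring
      rw [e]
      linarith
    have a2 := mul_le_mul_of_nonneg_right a1 hp.le
    have a3 := mul_nonneg (sq_nonneg v) g
    have e : v ^ 2 * (CHv * (w * w) - (1 + 51 / 128 * (v * w)) * (61 * PuF v - 1215 / 16 * (ρ * ρ * PlF (ρ * v))))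
        = CHv * (v * w) ^ 2 - v ^ 2 * (61 * PuF v - 1215 / 16 * (ρ * ρ * PlF (ρ * v))) * (1 + 51 / 128 * (v * w)) := by
      ring
    rw [e] at a3
    linarith

section main

variable {d lam : ℝ}

lemma x_neg (h0 : -(6691 / 16384) ≤ lam) (h1 : lam < 0) {u0 u1 u2 : ℝ} (hT : InT u0 u1 u2) :
    1 - Gp (lam * u0) (lam * u1) (lam * u2) ≤ (225 / 128) * lam ^ 2 := by
  have hTw := InT_scale (by linarith : -(1 / 2) ≤ lam) (by linarith : lam ≤ 1) hT
  obtain ⟨c0, c1, c2⟩ := coord_le_two hT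
  have b0 := neg_bounds h1 hT.2.1 c0
  have b1 := neg_bounds h1 hT.2.2.1 c1
  have b2 := neg_bounds h1 hT.2.2.2 c2
  have h2 := x_all _ _ _ hTw ⟨by linarith [b0.1], by linarith [b1.1], by linarith [b2.1]⟩
    ⟨by linarith [b0.2], by linarith [b1.2], by linarith [b2.2]⟩
  have e : sq3 (lam * u0) (lam * u1) (lam * u2) = lam ^ 2 * sq3 u0 u1 u2 := by
    unfold sq3; ring
  rw [e] at h2
  have h3 := sq3_le_six hT.1 hT.2.1 hT.2.2.1 hT.2.2.2
  have h4 : lam ^ 2 * sq3 u0 u1 u2 ≤ lam ^ 2 * 6 := mul_le_mul_of_nonneg_left h3 (sq_nonneg lam)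
  nlinarith

/-- The pointwise inequality. -/
theorem pw_P (hd : 0 ≤ d) (h0 : -(399 / 1024) ≤ lam) (h1 : lam < 0) (hdl : d * lam ^ 2 ≤ 1) :
    ∀ u0 u1 u2, InT u0 u1 u2 →
      d * psiN (lam * u0) (lam * u1) (lam * u2)
        + Fq (CHv * d ^ 2) ((51 / 128) * d) (WN (lam * u0) (lam * u1) (lam * u2))
        + (1 / 4096) * (sq3 u0 u1 u2) ^ 2 ≤ psiN u0 u1 u2 := by
  have h0' : -(6691 / 16384) ≤ lam := by linarith
  apply sym_reduce
  · intro a b c h
    rw [psiN_swap01 a b c, psiN_swap01 (lam * a) (lam * b) (lam * c), WN_swap01 (lam * a) (lam * b) (lam * c),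
      sq3_swap01 a b c]
    exact h
  · intro a b c h
    rw [psiN_swap12 a b c, psiN_swap12 (lam * a) (lam * b) (lam * c), WN_swap12 (lam * a) (lam * b) (lam * c),
      sq3_swap12 a b c]
    exact h
  · intro a b c hT h2 h3
    by_cases hneg : c < 0
    · obtain ⟨g1, g2⟩ := up_neg h0' h1 hT h2 h3 hneg
      have ht := top_sorted6 (l := -lam) hT h2 h3 hneg (by linarith) (by linarith)
      unfold rhsG at ht
      rw [rv_CH, rv_E, rv_one, rv_B1P] at ht
      have hTw := InT_scale (by linarith : -(1 / 2) ≤ lam) (by linarith : lam ≤ 1) hT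
      have e2 : (-lam) ^ 2 = lam ^ 2 := by ring
      have hW := W_neg h0' h1 hT
      have := pw_core_P (l := -lam) (d := d) (X := sq3 a b c) (E := 1 / 4096) (b := 51 / 128)
        (A := AbF ((-c) / a - rv 281475312254976) (-lam * a - rv 281475089956864))
        (B := BbF ((-c) / a - rv 281475312254976) (-lam * a - rv 281475089956864))
        (by linarith) hd (by rw [e2]; exact hdl) (sq3_nonneg' a b c) (by norm_num)
        (psiN_nonneg _ _ _ hTw) hW.1 (by rw [e2]; exact g1) (by rw [e2]; exact g2)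
        (by unfold CHv; exact ht)
      exact this
    · obtain ⟨e0, e1, e2⟩ := zero_of_sorted hT h2 h3 hneg
      subst e0 e1 e2
      simp only [mul_zero]
      unfold psiN WN sq3 Fq
      rw [values_zero.1, values_zero.2]
      norm_num

lemma Gk_tens (hd : 0 ≤ d) (h1 : -(1 / 2) ≤ lam) (h2 : lam ≤ 1) {k0 k1 k2 : ℕ} (hk : k0 + k1 + k2 = 9) (n : ℕ) :
    PS.Eg d lam (n + 1) (avg6 (Gk k0 k1 k2))
      = Real.exp (d * (PS.Eg d lam n (fun a b c => avg6 (Gk k0 k1 k2) (lam * a) (lam * b) (lam * c)) - 1)) := by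
  have e1 : PS.Eg d lam (n + 1) (avg6 (Gk k0 k1 k2)) = PS.Eg d lam (n + 1) (Gk k0 k1 k2) :=
    Eg_avg6 hd h1 h2 _ (BddT.gk _ _ _)
  have e2 : PS.Eg d lam n (fun a b c => avg6 (Gk k0 k1 k2) (lam * a) (lam * b) (lam * c))
      = PS.Eg d lam n (fun a b c => Gk k0 k1 k2 (lam * a) (lam * b) (lam * c)) :=
    Eg_avg6 hd h1 h2 n (BddT.gk_scale k0 k1 k2 h1 h2)
  rw [e1, e2]
  exact Eg_Gk_succ hd h1 h2 hk n

/-- Nonreconstruction on the Galton-Watson tree with Poisson offspring, for negative eigenvalues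
of absolute value at most `399 / 1024`, up to the Kesten-Stigum bound. -/
theorem nonrec_P (hd : 0 ≤ d) (h0 : -(399 / 1024) ≤ lam) (h1 : lam < 0) (hdl : d * lam ^ 2 ≤ 1) :
    Tendsto (fun n => gwGap 3 d lam n) atTop (𝓝 0) := by
  have h0' : -(6691 / 16384) ≤ lam := by linarith
  have hl1 : -(1 / 2) ≤ lam := by linarith
  have hl2 : lam ≤ 1 := by linarith
  apply gap_of_stepP hd hl1 hl2 (ε := 1 / 4096) (by norm_num) psiN_nonneg
  refine stepP (G1 := G1) (G2 := G2) (Gp' := Gp) (ψ := psiN) (W := WN) (T1 := 1161 / 16) (T2 := 27 / 8) (Tp := 61)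
    (κ := 225 / 256) (c := CHv * d ^ 2) (β := (51 / 128) * d) (ε := 1 / 4096)
    (ρ1 := 2117745 / 32768) (ρ2 := 278235 / 4096) (xm := (225 / 128) * lam ^ 2)
    hd hl1 hl2 (by norm_num) (by norm_num) (by norm_num) (by norm_num) (fun _ _ _ => rfl) (fun _ _ _ => rfl)
    (BddT.avg6 (BddT.gk 4 4 1)) (BddT.avg6 (BddT.gk 5 4 0)) (BddT.gk 3 3 3)
    (fun n => Gk_tens hd hl1 hl2 (k0 := 4) (k1 := 4) (k2 := 1) (by norm_num) n)
    (fun n => Gk_tens hd hl1 hl2 (k0 := 5) (k1 := 4) (k2 := 0) (by norm_num) n)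
    (fun n => Eg_Gk_succ hd hl1 hl2 (k0 := 3) (k1 := 3) (k2 := 3) (by norm_num) n)
    (by unfold CHv; positivity) (by positivity) (by norm_num) (by norm_num)
    (fun u0 u1 u2 hu => by
      have := Gp_le_one (InT_scale hl1 hl2 hu)
      linarith)
    (fun u0 u1 u2 hu => by
      obtain ⟨a1, a2, _⟩ := hull_neg h0' h1 u0 u1 u2 hu
      exact ⟨a1, a2, x_neg h0' h1 hu⟩)
    (fun x y a1 a2 a3 a4 => by
      have e : (1161 / 16 + 27 / 8 : ℝ) = 1215 / 16 := by norm_num
      rw [e]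
      apply cone_P hd a1 a2 a3
      have := mul_le_mul_of_nonneg_left a4 hd
      nlinarith)
    (pw_P hd h0 h1 hdl)

end main

end SP

end Vale.Agent.Lib.P154
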