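import Vale.Agent.Lib.P154.SN.Chart
import Vale.Agent.Lib.P154.SP.RealDefs
import Vale.Agent.Lib.P154.SP.TopC

/-!
The certified polynomial inequalities for the Galton-Watson tree, negative eigenvalues.
-/

namespace Vale.Agent.Lib.P154

namespace SP

open ST SN

lemma rv_B1P : rv 281475083665408 = 51 / 128 := by unfold rv zv; norm_num

/-- The upper bound function of the top level. -/
noncomputable def rhsG (a t l X : ℝ) : ℝ :=
  (((l * l) * AbF (a - rv 281475312254976) (t - rv 281475089956864))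
    + (rv 281475034122496
      * ((BbF (a - rv 281475312254976) (t - rv 281475089956864)
        * BbF (a - rv 281475312254976) (t - rv 281475089956864))
        * (rv 281475245146112 + (rv 281475083665408
          * (BbF (a - rv 281475312254976) (t - rv 281475089956864) * X)))⁻¹)))
    + rv 281474976776192

lemma box_K6c {r b l : ℝ} (h0 : 0 ≤ r) (h1 : r ≤ 1 / 8) (h2 : 1 / 2 ≤ b) (h3 : b ≤ 2)
    (h4 : 0 ≤ l) (h5 : l ≤ 399 / 1024) : InBox rootK6c r b l 0 := by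
  unfold rootK6c
  apply inBox_all <;> rw [abs_le] <;> unfold rv zv <;> norm_num <;> constructor <;> linarith

lemma box_K6f {r b l : ℝ} (h0 : 0 ≤ r) (h1 : r ≤ 1) (h2 : 0 ≤ b) (h3 : b ≤ 1)
    (h4 : 0 ≤ l) (h5 : l ≤ 399 / 1024) : InBox rootK6f r b l 0 := by
  unfold rootK6f
  apply inBox_all <;> rw [abs_le] <;> unfold rv zv <;> norm_num <;> constructor <;> linarith

lemma box_KXv {r b : ℝ} (h0 : 0 ≤ r) (h1 : r ≤ 11 / 64) (h2 : 1 / 2 ≤ b) (h3 : b ≤ 2) :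
    InBox rootKXv r b 0 0 := by
  unfold rootKXv
  apply inBox_all <;> rw [abs_le] <;> unfold rv zv <;> norm_num <;> constructor <;> linarith

/-- The top level inequality on the center chart. -/
theorem top_center6 {r b l : ℝ} (h0 : 0 < r) (h1 : r ≤ 1 / 8) (h2 : 1 / 2 ≤ b) (h3 : b ≤ 2)
    (h4 : 0 ≤ l) (h5 : l ≤ 399 / 1024) :
    (Nxy (1 + r * b) (1 + r * (1 - b)) (1 - r)) ^ 2
        * rhsG ((Sy (1 + r * b) (1 + r * (1 - b)) (1 - r) - 3 * (1 - r) ^ 9)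
            / (3 * (1 + r * b) ^ 9 - Sy (1 + r * b) (1 + r * (1 - b)) (1 - r)))
          (l * ((3 * (1 + r * b) ^ 9 - Sy (1 + r * b) (1 + r * (1 - b)) (1 - r))
            / Sy (1 + r * b) (1 + r * (1 - b)) (1 - r))) l
          (Nxy (1 + r * b) (1 + r * (1 - b)) (1 - r) / (Sy (1 + r * b) (1 + r * (1 - b)) (1 - r)) ^ 2)
      ≤ (Sy (1 + r * b) (1 + r * (1 - b)) (1 - r) * Lpn (1 + r * b) (1 + r * (1 - b)) (1 - r)
          - Nxy (1 + r * b) (1 + r * (1 - b)) (1 - r))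
        * (Sy (1 + r * b) (1 + r * (1 - b)) (1 - r)) ^ 2 := by
  have g := goodK6c r b l 0 (box_K6c h0.le h1 h2 h3 h4 h5) (by
    intro j
    rw [nthEx_nil]
    unfold Ex.evR rv zv
    norm_num)
  rw [evR_K6c] at g
  obtain ⟨_, _, eaq, etq⟩ := center_vals (r := r) (b := b) (l := l) (u := 0) h0
  have eR : crhs6 r b l 0 = rhsG (caq r b l 0) (ctq r b l 0) l (cXv r b l 0) := rfl
  have eM := cMt_eq r b l 0
  have eS := cS_eq r b l 0
  have eN := center_N (r := r) (b := b) (l := l) (u := 0)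
  have eX := center_X (r := r) (b := b) (l := l) (u := 0)
  rw [← eX, ← eaq, ← etq, ← eR, ← eM, eN, ← eS]
  unfold RK6c at g
  have hr4 : 0 ≤ r ^ 4 * 65536 := by positivity
  have h6 := mul_nonneg hr4 g
  have e : r ^ 4 * (65536 * cMt r b l 0) * cS r b l 0 ^ 2 - (r ^ 2 * (256 * cNn r b l 0)) ^ 2 * crhs6 r b l 0
      = r ^ 4 * 65536 * (cMt r b l 0 * (cS r b l 0 * cS r b l 0) - cNn r b l 0 * cNn r b l 0 * crhs6 r b l 0) := by
    ring
  linarith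

/-- The top level inequality on the far chart. -/
theorem top_far6 {r b l : ℝ} (h0 : 0 ≤ r) (h1 : r ≤ 1) (h2 : 0 ≤ b) (h3 : b ≤ 1)
    (h4 : 0 ≤ l) (h5 : l ≤ 399 / 1024) (hrb : b ≤ r) (hs : 17 * b ≤ 7 * (1 + r)) :
    (Nxy 1 r b) ^ 2 * rhsG ((Sy 1 r b - 3 * b ^ 9) / (3 * (1 : ℝ) ^ 9 - Sy 1 r b))
        (l * ((3 * (1 : ℝ) ^ 9 - Sy 1 r b) / Sy 1 r b)) l (Nxy 1 r b / (Sy 1 r b) ^ 2)
      ≤ (Sy 1 r b * Lpn 1 r b - Nxy 1 r b) * (Sy 1 r b) ^ 2 := by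
  have g := goodK6f r b l 0 (box_K6f h0 h1 h2 h3 h4 h5) (far_side hrb hs)
  rw [evR_K6f] at g
  obtain ⟨eS, eL, eN, eP0, ePt⟩ := far_vals r b l 0
  have ea : faq r b l 0 = (Sy 1 r b - 3 * b ^ 9) / (3 * (1 : ℝ) ^ 9 - Sy 1 r b) := by
    rw [← eP0, ← ePt]; rfl
  have et : ftq r b l 0 = l * ((3 * (1 : ℝ) ^ 9 - Sy 1 r b) / Sy 1 r b) := by
    rw [← eP0, ← eS]
    simp only [ftq, fiS, div_eq_mul_inv]
  have eX : fXv r b l 0 = Nxy 1 r b / (Sy 1 r b) ^ 2 := by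
    rw [← eN, ← eS]
    simp only [fXv, fiS]
    rw [div_eq_mul_inv, pow_two (fS r b l 0), mul_inv]
  have eR : frhs6 r b l 0 = rhsG (faq r b l 0) (ftq r b l 0) l (fXv r b l 0) := rfl
  rw [← ea, ← et, ← eX, ← eS, ← eL, ← eN, ← eR]
  unfold RK6f fM at g
  have e : (fS r b l 0 * fLp r b l 0 - fNx r b l 0) * fS r b l 0 ^ 2 - fNx r b l 0 ^ 2 * frhs6 r b l 0
      = (fS r b l 0 * fLp r b l 0 - fNx r b l 0) * (fS r b l 0 * fS r b l 0) - fNx r b l 0 * fNx r b l 0 * frhs6 r b l 0 := by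
    ring
  linarith

/-- The top level inequality on sorted points. -/
theorem top_sorted6 {u0 u1 u2 l : ℝ} (hT : InT u0 u1 u2) (h01 : u1 ≤ u0) (h12 : u2 ≤ u1) (hneg : u2 < 0)
    (hl0 : 0 ≤ l) (hl1 : l ≤ 399 / 1024) :
    (sq3 u0 u1 u2) ^ 2 * rhsG ((-u2) / u0) (l * u0) l (sq3 u0 u1 u2) ≤ psiN u0 u1 u2 - sq3 u0 u1 u2 :=
  top_sorted_gen (Q := fun a t X => rhsG a (l * t) l X) hT h01 h12 hneg
    (fun _ _ a1 a2 a3 a4 => top_center6 a1 a2 a3 a4 hl0 hl1)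
    (fun _ _ a1 a2 a3 a4 a5 a6 => top_far6 a1 a2 a3 a4 hl0 hl1 a5 a6)

/-- The first test function is controlled by the squared norm, on the center chart. -/
theorem x_center {r b : ℝ} (h0 : 0 < r) (h1 : r ≤ 11 / 64) (h2 : 1 / 2 ≤ b) (h3 : b ≤ 2)
    (hv : (3 * (1 + r * b) ^ 9 - Sy (1 + r * b) (1 + r * (1 - b)) (1 - r))
      / Sy (1 + r * b) (1 + r * (1 - b)) (1 - r) ≤ 6691 / 16384)
    (hs : (Sy (1 + r * b) (1 + r * (1 - b)) (1 - r) - 3 * (1 - r) ^ 9)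
      / Sy (1 + r * b) (1 + r * (1 - b)) (1 - r) ≤ 6691 / 8192)
    (hS : 0 < Sy (1 + r * b) (1 + r * (1 - b)) (1 - r)) :
    Hpn (1 + r * b) (1 + r * (1 - b)) (1 - r) * Sy (1 + r * b) (1 + r * (1 - b)) (1 - r)
      ≤ (75 / 256) * Nxy (1 + r * b) (1 + r * (1 - b)) (1 - r) := by
  have eS := cS_eq r b 0 0
  have eP := cPt_eq r b 0 0
  have eP0 := cP0_eq r b 0 0
  have eHp := cHp_eq r b 0 0
  have eN := center_N (r := r) (b := b) (l := 0) (u := 0)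
  have side : ∀ j, 0 ≤ Ex.evR (nthEx gsL j) [r, b, 0, 0] := by
    intro j
    match j with
    | 0 =>
      rw [evR_gsL0, rv_L, eS, eP0]
      rw [div_le_iff₀ hS] at hv
      linarith
    | 1 =>
      rw [evR_gsL1, rv_2L, eS, eP]
      rw [div_le_iff₀ hS] at hs
      linarith
    | (j + 2) =>
      have : nthEx gsL (j + 2) = Ex.c 281474976710656 := rfl
      rw [this]
      unfold Ex.evR rv zv
      norm_num
  have g := goodKXv r b 0 0 (box_KXv h0.le h1 h2 h3) side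
  rw [evR_KXv] at g
  unfold RKXv at g
  have e75 : rv 281495109369856 = 75 := by unfold rv zv; norm_num
  rw [e75] at g
  rw [← eHp, ← eS, eN]
  have hr2 : 0 ≤ r ^ 2 := by positivity
  have h6 := mul_nonneg hr2 g
  have e : (75 / 256) * (r ^ 2 * (256 * cNn r b 0 0)) - r ^ 2 * cHp r b 0 0 * cS r b 0 0
      = r ^ 2 * (75 * cNn r b 0 0 - cHp r b 0 0 * cS r b 0 0) := by ring
  linarith

theorem x_sorted {w0 w1 w2 : ℝ} (hT : InT w0 w1 w2) (h01 : w1 ≤ w0) (h12 : w2 ≤ w1)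
    (hv : w0 ≤ 6691 / 16384) (ht : -w2 ≤ 6691 / 8192) :
    1 - Gp w0 w1 w2 ≤ (75 / 256) * sq3 w0 w1 w2 := by
  by_cases hneg : w2 < 0
  · have H := srt_of hT h01 h12 hneg
    obtain ⟨τ, a, h1, h2, h3, h4, R⟩ := center_rep H
    have hτ := tau_bound H (by linarith) (by linarith) h4
    have hS := R.pos
    have eV : w0 = (3 * (1 + τ * a) ^ 9 - Sy (1 + τ * a) (1 + τ * (1 - a)) (1 - τ))
        / Sy (1 + τ * a) (1 + τ * (1 - a)) (1 - τ) := R.e0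
    have eT : -w2 = (Sy (1 + τ * a) (1 + τ * (1 - a)) (1 - τ) - 3 * (1 - τ) ^ 9)
        / Sy (1 + τ * a) (1 + τ * (1 - a)) (1 - τ) := by
      rw [R.e2]; ring
    have g := x_center h1 hτ h2 h3 (by rw [← eV]; exact hv) (by rw [← eT]; exact ht) hS
    rw [R.hp, R.sq]
    rw [div_le_iff₀ hS]
    have e : (75 / 256) * (Nxy (1 + τ * a) (1 + τ * (1 - a)) (1 - τ) / Sy (1 + τ * a) (1 + τ * (1 - a)) (1 - τ) ^ 2)
          * Sy (1 + τ * a) (1 + τ * (1 - a)) (1 - τ)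
        = ((75 / 256) * Nxy (1 + τ * a) (1 + τ * (1 - a)) (1 - τ)) / Sy (1 + τ * a) (1 + τ * (1 - a)) (1 - τ) := by
      field_simp
    rw [e, le_div_iff₀ hS]
    exact g
  · obtain ⟨e0, e1, e2⟩ := zero_of_sorted hT h01 h12 hneg
    subst e0 e1 e2
    rw [values_zero.1]
    unfold sq3
    norm_num

/-- The first test function is controlled by the squared norm on the triangle. -/
theorem x_all : ∀ w0 w1 w2 : ℝ, InT w0 w1 w2 →
    (w0 ≤ 6691 / 16384 ∧ w1 ≤ 6691 / 16384 ∧ w2 ≤ 6691 / 16384) →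
    (-w0 ≤ 6691 / 8192 ∧ -w1 ≤ 6691 / 8192 ∧ -w2 ≤ 6691 / 8192) →
    1 - Gp w0 w1 w2 ≤ (75 / 256) * sq3 w0 w1 w2 := by
  apply sym_reduce
  · intro a b c h h0 h1
    rw [Gp_swap01 a b c, sq3_swap01 a b c]
    exact h ⟨h0.2.1, h0.1, h0.2.2⟩ ⟨h1.2.1, h1.1, h1.2.2⟩
  · intro a b c h h0 h1
    rw [Gp_swap12 a b c, sq3_swap12 a b c]
    exact h ⟨h0.1, h0.2.2, h0.2.1⟩ ⟨h1.1, h1.2.2, h1.2.1⟩
  · intro a b c hT h1 h2 h3 h4
    exact x_sorted hT h1 h2 h3.1 h4.2.2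

end SP

end Vale.Agent.Lib.P154
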